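import Vale.Agent.P067.Fin

namespace Vale.Agent.Results.P067.CobExp

open Vale.Agent.P067

theorem result : ∀ d : ℕ, 1 ≤ d → ∃ (D : ℕ) (ε : ℝ), 0 < ε ∧ ∃ X : ℕ → Cx d,
    Filter.Tendsto (fun m => ((X m).face 0).card) Filter.atTop Filter.atTop ∧
    ∀ m, (X m).Connected ∧ (X m).degree ≤ D ∧ (X m).IsCobExp ε :=
  fun d hd => main d hd

end Vale.Agent.Results.P067.CobExp
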